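import Vale.Agent.Lib.P038.Sat.Shapes.S6_8t
noncomputable section
namespace Vale.Agent.Lib.P038.Sat.I.M3_8
open Vale.Agent.Lib.P038.Sat
def W : Nat := 116
def M : Nat := 83076749736557242056487941267521535
def GT : Nat := 182885254696758409161683501157571815153426881150287626588336046969517387557507179561669763420946232053870187813052896714329890133573308835141772067240114276802540492036541836724076326446947468686377385269406218552093212383752564363356954946748554014320461411955332650600032133153255648458206644108946526312203527637223082136092655287890415639802055510480351777846863802007016554319940937646196182026539213573698892366358207672374124658779751908207147517276018954206024638779875410661670971706328410380861967944114700145682753511105513318567196181963668295502930235231301968379431429860155961882064904658203970788563845926151572096027224267859219342098673317560545353683014260068423271530306370362958253879661208332630785287826693167331537059757771771203315934415006892788072311680651870603653818118062851358553204860726856357150122319617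
def h0 : T := (T.l (nat_lit 0))
def H : T := h0
theorem hlast : getB H 0 = 0 := by decide +kernel
end Vale.Agent.Lib.P038.Sat.I.M3_8
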